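import Vale.Agent.P125.Key

namespace Vale.Agent.Results.P125.MarkovType

open Vale.Agent.P125

theorem result (X : Type*) [NormedAddCommGroup X] [NormedSpace ℝ X] [CompleteSpace X] (p : ℝ)
    (hp : 1 < p) (h : HasMarkovType X p) :
    (∃ N : Seminorm ℝ X, IsEquivNorm N ∧ IsUnifSmooth N) ∧
      ∃ N : Seminorm ℝ X, IsEquivNorm N ∧ IsUnifConvex N :=
  main hp h

end Vale.Agent.Results.P125.MarkovType
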